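import Vale.Agent.P038.Main

namespace Vale.Agent.Results.P038.Seymour

/-- Seymour's second neighbourhood conjecture. -/
theorem result {V : Type*} [Finite V] [Nonempty V] (E : V → V → Prop)
    (hloop : ∀ v, ¬ E v v) (hopp : ∀ u v, E u v → ¬ E v u) :
    ∃ v, {u | E v u}.ncard ≤ {w | w ≠ v ∧ ¬ E v w ∧ ∃ u, E v u ∧ E u w}.ncard := by
  have := Fintype.ofFinite V
  obtain ⟨v, hv⟩ := Vale.Agent.P038.seymour _ E hloop hopp rfl
  refine ⟨v, ?_⟩
  have e1 : {u | E v u} = ↑(Vale.Agent.P038.N1 E v) := by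
    ext u
    simp [Vale.Agent.P038.mem_N1]
  have e2 : {w | w ≠ v ∧ ¬ E v w ∧ ∃ u, E v u ∧ E u w} = ↑(Vale.Agent.P038.N2 E v) := by
    ext u
    simp only [Set.mem_ofPred_eq, Finset.mem_coe, Vale.Agent.P038.mem_N2]
  rw [e1, e2, Set.ncard_coe_finset, Set.ncard_coe_finset]
  exact hv

end Vale.Agent.Results.P038.Seymour
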